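import Vale.Agent.P369.H326.Phys6

/-!
P369 (helper447), package FD-END, part 2: Klein's inequality with entrywise norms.
-/

set_option linter.all false

namespace Vale.Agent.P369H447

open Matrix Finset
open Vale.Agent.P369V (ent EigB eta b_ent_eq ment_eq eigB_matrix)
open scoped InnerProductSpace ComplexOrder

noncomputable section

variable {ι : Type} [Fintype ι] [DecidableEq ι]

theorem sum_sq_basis (b : OrthonormalBasis ι ℂ (EuclideanSpace ℂ ι)) (i : ι) :
    ∑ l, ‖(b l) i‖ ^ 2 = 1 := by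
  have h := b.sum_sq_norm_inner_right (EuclideanSpace.single i (1 : ℂ))
  rw [EuclideanSpace.norm_single, norm_one, one_pow] at h
  rw [← h]
  refine Finset.sum_congr rfl fun l _ => ?_
  rw [← inner_conj_symm, EuclideanSpace.inner_single_left]
  simp

theorem sum_abs_inner_le (b : OrthonormalBasis ι ℂ (EuclideanSpace ℂ ι)) (Z : Matrix ι ι ℂ) :
    ∑ l, ‖⟪b l, Matrix.toEuclideanLin Z (b l)⟫_ℂ‖ ≤ ∑ i, ∑ j, ‖Z i j‖ := by
  have h1 : ∀ l, ‖⟪b l, Matrix.toEuclideanLin Z (b l)⟫_ℂ‖ ≤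
      ∑ i, ∑ j, ‖Z i j‖ * (‖(b l) i‖ * ‖(b l) j‖) := by
    intro l
    have e3 : ⟪b l, Matrix.toEuclideanLin Z (b l)⟫_ℂ =
        ∑ i, ∑ j, star ((b l) i) * (Z i j * (b l) j) := by
      rw [EuclideanSpace.inner_eq_star_dotProduct, Matrix.toLpLin_apply, dotProduct_comm]
      simp only [dotProduct, Matrix.mulVec, Pi.star_apply]
      refine Finset.sum_congr rfl fun i _ => ?_
      rw [Finset.mul_sum]
    rw [e3]
    refine (norm_sum_le _ _).trans (Finset.sum_le_sum fun i _ => ?_)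
    refine (norm_sum_le _ _).trans (Finset.sum_le_sum fun j _ => ?_)
    rw [norm_mul, norm_mul, norm_star]
    apply le_of_eq
    ring
  calc ∑ l, ‖⟪b l, Matrix.toEuclideanLin Z (b l)⟫_ℂ‖
      ≤ ∑ l, ∑ i, ∑ j, ‖Z i j‖ * (‖(b l) i‖ * ‖(b l) j‖) := Finset.sum_le_sum fun l _ => h1 l
    _ = ∑ i, ∑ j, ‖Z i j‖ * ∑ l, (‖(b l) i‖ * ‖(b l) j‖) := by
        rw [Finset.sum_comm]
        refine Finset.sum_congr rfl fun i _ => ?_
        rw [Finset.sum_comm]
        refine Finset.sum_congr rfl fun j _ => ?_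
        rw [Finset.mul_sum]
    _ ≤ ∑ i, ∑ j, ‖Z i j‖ := by
        refine Finset.sum_le_sum fun i _ => Finset.sum_le_sum fun j _ => ?_
        refine mul_le_of_le_one_right (norm_nonneg _) ?_
        have h2 : ∑ l, (‖(b l) i‖ * ‖(b l) j‖) ≤ ∑ l, (‖(b l) i‖ ^ 2 + ‖(b l) j‖ ^ 2) / 2 :=
          Finset.sum_le_sum fun l _ => by nlinarith [sq_nonneg (‖(b l) i‖ - ‖(b l) j‖)]
        refine h2.trans (le_of_eq ?_)
        rw [← Finset.sum_div, Finset.sum_add_distrib, sum_sq_basis, sum_sq_basis]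
        norm_num

/-- Klein's inequality with entrywise norms -/
theorem ent_sub_le {T C : Matrix ι ι ℂ} (hT : T.PosSemidef) (hC : C.PosDef) {L : ℝ}
    (hL : ∀ l, |Real.log (hC.isHermitian.eigenvalues l) + 1| ≤ L) :
    ent T - ent C ≤ L * ∑ i, ∑ j, ‖C i j - T i j‖ := by
  have hTe := eigB_matrix hT.isHermitian
  have hCe := eigB_matrix hC.isHermitian
  have hle := hTe.ent_le hCe hT.eigenvalues_nonneg hC.eigenvalues_pos
  have e4 : ent T = eta hT.isHermitian.eigenvalues := by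
    rw [b_ent_eq hT.isHermitian, ment_eq hT.isHermitian hTe]
  have e5 : ent C = eta hC.isHermitian.eigenvalues := by
    rw [b_ent_eq hC.isHermitian, ment_eq hC.isHermitian hCe]
  rw [e4, e5]
  refine hle.trans ?_
  set b := hC.isHermitian.eigenvectorBasis with hb
  have h1 : ∀ l, Matrix.toEuclideanLin T (b l) - Matrix.toEuclideanLin C (b l) =
      Matrix.toEuclideanLin (T - C) (b l) := by
    intro l
    rw [map_sub, LinearMap.sub_apply]
  have hsw : ∑ i, ∑ j, ‖C i j - T i j‖ = ∑ i, ∑ j, ‖(T - C) i j‖ := by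
    refine Finset.sum_congr rfl fun i _ => Finset.sum_congr rfl fun j _ => ?_
    rw [Matrix.sub_apply, norm_sub_rev]
  rcases isEmpty_or_nonempty ι with hι | ⟨⟨l0⟩⟩
  · simp
  have hL0 : 0 ≤ L := (abs_nonneg _).trans (hL l0)
  rw [hsw]
  calc -∑ l, (Real.log (hC.isHermitian.eigenvalues l) + 1) *
        RCLike.re ⟪b l, Matrix.toEuclideanLin T (b l) - Matrix.toEuclideanLin C (b l)⟫_ℂ
      ≤ ∑ l, L * ‖⟪b l, Matrix.toEuclideanLin (T - C) (b l)⟫_ℂ‖ := by
        rw [← Finset.sum_neg_distrib]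
        refine Finset.sum_le_sum fun l _ => ?_
        rw [h1]
        refine (neg_le_abs _).trans ?_
        rw [abs_mul]
        exact mul_le_mul (hL l) (RCLike.abs_re_le_norm _) (abs_nonneg _) hL0
    _ = L * ∑ l, ‖⟪b l, Matrix.toEuclideanLin (T - C) (b l)⟫_ℂ‖ := by rw [Finset.mul_sum]
    _ ≤ _ := mul_le_mul_of_nonneg_left (sum_abs_inner_le b _) hL0

/-- eigenvalue bounds -/
theorem eigenvalues_ge {C : Matrix ι ι ℂ} (hC : C.IsHermitian) {lam : ℝ}
    (h : (C - (lam : ℂ) • (1 : Matrix ι ι ℂ)).PosSemidef) (l : ι) : lam ≤ hC.eigenvalues l := by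
  have h2 := h.dotProduct_mulVec_nonneg ((hC.eigenvectorBasis l : EuclideanSpace ℂ ι) : ι → ℂ)
  have h3 := hC.mulVec_eigenvectorBasis l
  rw [Matrix.sub_mulVec, h3, Matrix.smul_mulVec, Matrix.one_mulVec, dotProduct_sub,
    dotProduct_smul, dotProduct_smul] at h2
  have h7 : star ((hC.eigenvectorBasis l : EuclideanSpace ℂ ι) : ι → ℂ) ⬝ᵥ
      ((hC.eigenvectorBasis l : EuclideanSpace ℂ ι) : ι → ℂ) = 1 := by
    have h8 := hC.eigenvectorBasis.orthonormal.1 l
    have h9 : ⟪hC.eigenvectorBasis l, hC.eigenvectorBasis l⟫_ℂ = 1 := by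
      rw [inner_self_eq_norm_sq_to_K, h8]; simp
    rw [EuclideanSpace.inner_eq_star_dotProduct, dotProduct_comm] at h9
    exact h9
  rw [h7] at h2
  have h4 := (Complex.le_def.1 h2).1
  simp at h4
  linarith

theorem eigenvalues_le_trace {C : Matrix ι ι ℂ} (hC : C.PosSemidef) (l : ι) :
    hC.isHermitian.eigenvalues l ≤ C.trace.re := by
  rw [hC.isHermitian.trace_eq_sum_eigenvalues]
  simp only [Complex.coe_algebraMap, Complex.re_sum, Complex.ofReal_re]
  exact Finset.single_le_sum (f := fun i => hC.isHermitian.eigenvalues i)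
    (fun i _ => hC.eigenvalues_nonneg i) (Finset.mem_univ l)

/-- Klein's inequality with a lower bound `lam` of `C` and an upper bound of the trace -/
theorem ent_sub_le' {T C : Matrix ι ι ℂ} (hT : T.PosSemidef) (hC : C.PosDef) {lam : ℝ}
    (h0 : 0 < lam) (h1 : lam ≤ 1) (h : (C - (lam : ℂ) • (1 : Matrix ι ι ℂ)).PosSemidef)
    (htr : C.trace.re ≤ 2) :
    ent T - ent C ≤ (2 + Real.log (1 / lam)) * ∑ i, ∑ j, ‖C i j - T i j‖ := by
  apply ent_sub_le hT hC
  intro l
  have h2 := eigenvalues_ge hC.isHermitian h l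
  have h3 := (eigenvalues_le_trace hC.posSemidef l).trans htr
  have h4 : Real.log lam ≤ Real.log (hC.isHermitian.eigenvalues l) := Real.log_le_log h0 h2
  have h5 : Real.log (hC.isHermitian.eigenvalues l) ≤ Real.log 2 :=
    Real.log_le_log (h0.trans_le h2) h3
  have h6 : Real.log 2 ≤ 1 := by
    have := Real.log_le_sub_one_of_pos (show (0 : ℝ) < 2 by norm_num)
    linarith
  have h7 : Real.log (1 / lam) = - Real.log lam := by rw [one_div, Real.log_inv]
  have h8 : Real.log lam ≤ 0 := Real.log_nonpos h0.le h1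
  rw [h7, abs_le]
  constructor <;> linarith

end

end Vale.Agent.P369H447
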