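import Vale.Agent.P369.H447.Low
import Vale.Agent.P369.H447.Klein

/-!
P369 (helper447), package FD-END, part 3: matrices with small `(M+1) c_j C - M C c_j` are close to
the thermal state, in trace and in entropy; the energy; the Gibbs bound.
-/

set_option linter.all false

namespace Vale.Agent.P369H447

open Matrix Finset
open Vale.Agent.P369 (Conf up down)
open Vale.Agent.P369A (Ct)
open Vale.Agent.P369T (thn th)
open Vale.Agent.P369V (ent EigB eta b_ent_eq ment_eq eigB_matrix)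
open scoped InnerProductSpace ComplexOrder

noncomputable section

variable {n : ℕ}

theorem thn_eq {M : ℝ} (hM : 0 ≤ M) (k : Conf n) :
    thn M k = (M / (M + 1)) ^ (∑ j, k j) * ((M + 1)⁻¹) ^ n := by
  unfold thn
  have h : ∀ j, th M (k j) = (M / (M + 1)) ^ (k j) * (M + 1)⁻¹ := fun j => P369T.th_eq hM (k j)
  simp only [h]
  rw [Finset.prod_mul_distrib, Finset.prod_pow_eq_pow_sum, Finset.prod_const, Finset.card_univ,
    Fintype.card_fin]

theorem thn_nonneg {M : ℝ} (hM : 0 ≤ M) (k : Conf n) : 0 ≤ thn M k :=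
  (P369T.thn_isProb hM).1 k

theorem thn_pos {M : ℝ} (hM : 0 < M) (k : Conf n) : 0 < thn M k := by
  rw [thn_eq hM.le]
  positivity

/-- the thermal state cut to at most `X` photons -/
def TH (n X : ℕ) (M : ℝ) : Matrix (Ct n X) (Ct n X) ℂ :=
  Matrix.diagonal fun k => ((thn M k.1 : ℝ) : ℂ)

theorem TH_posSemidef (X : ℕ) {M : ℝ} (hM : 0 ≤ M) : (TH n X M).PosSemidef := by
  unfold TH
  rw [Matrix.posSemidef_diagonal_iff]
  intro k
  exact Complex.zero_le_real.2 (thn_nonneg hM k.1)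

theorem TH_posDef (X : ℕ) {M : ℝ} (hM : 0 < M) : (TH n X M).PosDef := by
  unfold TH
  rw [Matrix.posDef_diagonal_iff]
  intro k
  exact Complex.zero_lt_real.2 (thn_pos hM k.1)

/-- the probability of more than `X` photons -/
def tail (n X : ℕ) (M : ℝ) : ℝ := 1 - ∑ k : Ct n X, thn M k.1

theorem sum_thn_le_one {M : ℝ} (hM : 0 ≤ M) (X : ℕ) : ∑ k : Ct n X, thn M k.1 ≤ 1 := by
  rw [← P369A.sum_ctF X (fun k => thn M k)]
  exact sum_le_hasSum _ (fun k _ => thn_nonneg hM k) (P369T.thn_isProb hM).2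

theorem tail_nonneg {M : ℝ} (hM : 0 ≤ M) (X : ℕ) : 0 ≤ tail n X M := by
  unfold tail
  linarith [sum_thn_le_one (n := n) hM X]

/-- `r^{|k|}` is summable -/
theorem hasSum_pow {q : ℝ} (h0 : 0 ≤ q) (h1 : q < 1) :
    HasSum (fun k : Conf n => q ^ (∑ j, k j)) (((1 - q)⁻¹) ^ n) := by
  have := P369T.hasSum_pi_prod (n := n) (F := fun _ k => q ^ k) (a := fun _ => (1 - q)⁻¹)
    (fun _ => hasSum_geometric_of_lt_one h0 h1)
  simp only [Finset.prod_const, Finset.card_univ, Fintype.card_fin] at this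
  refine this.congr_fun fun k => ?_
  rw [Finset.prod_pow_eq_pow_sum]

/-- exponential decay of the tail -/
theorem tail_le {M : ℝ} (hM : 0 ≤ M) (X : ℕ) :
    tail n X M ≤ ((1 - Real.sqrt (M / (M + 1)))⁻¹) ^ n * (Real.sqrt (M / (M + 1))) ^ X := by
  set r : ℝ := M / (M + 1) with hr
  have hM1 : (0 : ℝ) < M + 1 := by linarith
  have hr0 : 0 ≤ r := by positivity
  have hr1 : r < 1 := by rw [hr, div_lt_one hM1]; linarith
  set q : ℝ := Real.sqrt r with hq
  have hq0 : 0 ≤ q := Real.sqrt_nonneg _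
  have hq1 : q < 1 := by
    rw [hq, Real.sqrt_lt' one_pos]
    simpa using hr1
  have hqq : q * q = r := Real.mul_self_sqrt hr0
  have h1 := (P369T.thn_isProb (n := n) hM).2
  have h2 := hasSum_pow (n := n) hq0 hq1
  -- compare termwise
  have h3 : HasSum (fun k : Conf n => q ^ (∑ j, k j) * q ^ X) (((1 - q)⁻¹) ^ n * q ^ X) :=
    h2.mul_right _
  have h4 : HasSum (fun k : Conf n => thn M k - (if k ∈ P369A.ctF n X then thn M k else 0))
      (1 - ∑ k ∈ P369A.ctF n X, thn M k) := by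
    refine h1.sub ?_
    have h : HasSum (fun k : Conf n => if k ∈ P369A.ctF n X then thn M k else 0)
        (∑ k ∈ P369A.ctF n X, if k ∈ P369A.ctF n X then thn M k else 0) :=
      hasSum_sum_of_ne_finset_zero (fun b hb => if_neg hb)
    rw [Finset.sum_congr rfl fun k hk => if_pos hk] at h
    exact h
  have h5 : tail n X M = 1 - ∑ k ∈ P369A.ctF n X, thn M k := by
    unfold tail
    rw [P369A.sum_ctF X (fun k => thn M k)]
  rw [h5]
  refine hasSum_le (fun k => ?_) h4 h3
  by_cases hk : k ∈ P369A.ctF n X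
  · rw [if_pos hk, sub_self]
    positivity
  · rw [if_neg hk, sub_zero, thn_eq hM]
    rw [P369A.mem_ctF] at hk
    push Not at hk
    have h6 : r ^ (∑ j, k j) = q ^ (∑ j, k j) * q ^ (∑ j, k j) := by
      rw [← mul_pow, hqq]
    rw [← hr, h6]
    have h7 : q ^ (∑ j, k j) ≤ q ^ X := pow_le_pow_of_le_one hq0 hq1.le hk.le
    have h8 : ((M + 1)⁻¹) ^ n ≤ 1 := pow_le_one₀ (by positivity) (inv_le_one_of_one_le₀ (by linarith))
    calc q ^ (∑ j, k j) * q ^ (∑ j, k j) * ((M + 1)⁻¹) ^ n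
        ≤ q ^ (∑ j, k j) * q ^ X * 1 := by
          refine mul_le_mul ?_ h8 (by positivity) (by positivity)
          exact mul_le_mul_of_nonneg_left h7 (by positivity)
      _ = _ := mul_one _

/-- the number of configurations -/
theorem card_Ct_le (n X : ℕ) : (Fintype.card (Ct n X) : ℝ) ≤ ((X : ℝ) + 1) ^ n := by
  have h : Fintype.card (Ct n X) ≤ Fintype.card (Fin n → Fin (X + 1)) := by
    apply Fintype.card_le_of_injective (fun (x : Ct n X) (j : Fin n) =>
      (⟨x.1 j, Nat.lt_succ_of_le ((Finset.single_le_sum (f := fun i => x.1 i)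
        (fun _ _ => Nat.zero_le _) (Finset.mem_univ j)).trans x.2)⟩ : Fin (X + 1)))
    intro x y hxy
    exact Subtype.ext (funext fun j => by simpa using congrFun hxy j)
  rw [Fintype.card_fun, Fintype.card_fin, Fintype.card_fin] at h
  exact_mod_cast h

/-- trace-norm type closeness to the thermal state -/
theorem sum_norm_sub_le {X : ℕ} {M ξ : ℝ} (hM : 0 < M) (hξ : 0 ≤ ξ)
    {C : Matrix (Ct n X) (Ct n X) ℂ}
    (hC : C.IsHermitian) (hX : ∀ j (k l : Ct n X), ∑ i, k.1 i < X → ‖XM X M j C k l‖ ≤ ξ) :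
    ∑ k, ∑ l, ‖C k l - TH n X M k l‖ ≤
      4 * (X : ℝ) * ((X : ℝ) + 1) ^ (2 * n) * ξ +
        ((X : ℝ) + 1) ^ n * (‖C.trace - 1‖ + tail n X M) := by
  set N : ℝ := (Fintype.card (Ct n X) : ℝ) with hN
  have hNle : N ≤ ((X : ℝ) + 1) ^ n := card_Ct_le n X
  have hN0 : 0 ≤ N := Nat.cast_nonneg _
  set r : ℝ := M / (M + 1) with hr
  have hM1 : (0 : ℝ) < M + 1 := by linarith
  have hr0 : 0 ≤ r := by positivity
  have hr1 : r ≤ 1 := by rw [hr, div_le_one hM1]; linarith
  set c : ℂ := C (z0 n X) (z0 n X) with hc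
  set κ : ℝ := ((M + 1)⁻¹) ^ n with hκ
  have hX0 : (0 : ℝ) ≤ X := Nat.cast_nonneg _
  -- entries
  have hent : ∀ k l : Ct n X, ‖C k l - (if k = l then ((r ^ (∑ j, k.1 j) : ℝ) : ℂ) * c else 0)‖ ≤
      2 * X * ξ := by
    intro k l
    refine (rec_bound hM hC hξ hX _ k l rfl).trans ?_
    have h1 : ((∑ j, k.1 j + ∑ j, l.1 j : ℕ) : ℝ) ≤ 2 * X := by
      have : ∑ j, k.1 j + ∑ j, l.1 j ≤ 2 * X := by
        have := k.2
        have := l.2
        omega
      exact_mod_cast this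
    exact mul_le_mul_of_nonneg_right h1 hξ
  -- the trace
  set Z : ℝ := ∑ k : Ct n X, r ^ (∑ j, k.1 j) with hZ
  have hZ1 : 1 ≤ Z := by
    have h1 : r ^ (∑ j, (z0 n X).1 j) ≤ Z :=
      Finset.single_le_sum (f := fun k : Ct n X => r ^ (∑ j, k.1 j)) (fun k _ => by positivity)
        (Finset.mem_univ (z0 n X))
    have h2 : ∑ j, (z0 n X).1 j = 0 := by
      show ∑ j : Fin n, (0 : Conf n) j = 0
      simp
    rw [h2, pow_zero] at h1
    exact h1
  have hκZ : κ * Z = 1 - tail n X M := by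
    unfold tail
    rw [hZ, Finset.mul_sum, sub_sub_cancel]
    refine Finset.sum_congr rfl fun k _ => ?_
    rw [thn_eq hM.le, mul_comm]
  have htr : ‖C.trace - (Z : ℂ) * c‖ ≤ N * (2 * X * ξ) := by
    have e : C.trace - (Z : ℂ) * c = ∑ k : Ct n X, (C k k - ((r ^ (∑ j, k.1 j) : ℝ) : ℂ) * c) := by
      rw [Finset.sum_sub_distrib, ← Finset.sum_mul, hZ, Matrix.trace]
      push_cast
      rfl
    rw [e]
    refine (norm_sum_le _ _).trans ?_
    have : ∀ k ∈ (Finset.univ : Finset (Ct n X)),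
        ‖C k k - ((r ^ (∑ j, k.1 j) : ℝ) : ℂ) * c‖ ≤ 2 * X * ξ := by
      intro k _
      have := hent k k
      rwa [if_pos rfl] at this
    refine (Finset.sum_le_card_nsmul _ _ _ this).trans ?_
    rw [nsmul_eq_mul, Finset.card_univ]
  have hcκ : ‖c - (κ : ℂ)‖ ≤ ‖C.trace - 1‖ + tail n X M + N * (2 * X * ξ) := by
    have e : (Z : ℂ) * (c - (κ : ℂ)) = (C.trace - 1) + ((tail n X M : ℝ) : ℂ) - (C.trace - (Z : ℂ) * c) := by
      have : (Z : ℂ) * (κ : ℂ) = 1 - ((tail n X M : ℝ) : ℂ) := by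
        rw [mul_comm, ← Complex.ofReal_mul, hκZ]
        push_cast
        ring
      rw [mul_sub, this]
      ring
    have h1 : ‖(Z : ℂ) * (c - (κ : ℂ))‖ ≤ ‖C.trace - 1‖ + tail n X M + N * (2 * X * ξ) := by
      rw [e]
      refine (norm_sub_le _ _).trans (add_le_add ((norm_add_le _ _).trans ?_) htr)
      rw [Complex.norm_real, Real.norm_of_nonneg (tail_nonneg hM.le X)]
    refine le_trans ?_ h1
    rw [norm_mul, Complex.norm_real, Real.norm_of_nonneg (by linarith)]
    exact le_mul_of_one_le_left (norm_nonneg _) hZ1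
  -- the difference
  have hdiff : ∀ k l : Ct n X, ‖C k l - TH n X M k l‖ ≤
      2 * X * ξ + (if k = l then ‖c - (κ : ℂ)‖ else 0) := by
    intro k l
    by_cases hkl : k = l
    · subst hkl
      have h1 := hent k k
      rw [if_pos rfl] at h1 ⊢
      have e : C k k - TH n X M k k = (C k k - ((r ^ (∑ j, k.1 j) : ℝ) : ℂ) * c) +
          ((r ^ (∑ j, k.1 j) : ℝ) : ℂ) * (c - (κ : ℂ)) := by
        unfold TH
        rw [Matrix.diagonal_apply_eq, thn_eq hM.le, ← hr, ← hκ, Complex.ofReal_mul]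
        ring
      rw [e]
      refine (norm_add_le _ _).trans (add_le_add h1 ?_)
      rw [norm_mul, Complex.norm_real, Real.norm_of_nonneg (by positivity)]
      exact mul_le_of_le_one_left (norm_nonneg _) (pow_le_one₀ hr0 hr1)
    · have h1 := hent k l
      rw [if_neg hkl] at h1 ⊢
      have e : TH n X M k l = 0 := by
        unfold TH
        exact Matrix.diagonal_apply_ne _ hkl
      rw [e, add_zero]
      exact h1
  calc ∑ k, ∑ l, ‖C k l - TH n X M k l‖
      ≤ ∑ k : Ct n X, ∑ l : Ct n X, (2 * X * ξ + (if k = l then ‖c - (κ : ℂ)‖ else 0)) :=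
        Finset.sum_le_sum fun k _ => Finset.sum_le_sum fun l _ => hdiff k l
    _ = N * (N * (2 * X * ξ)) + N * ‖c - (κ : ℂ)‖ := by
        simp only [Finset.sum_add_distrib, Finset.sum_const, Finset.card_univ, nsmul_eq_mul,
          Finset.sum_ite_eq, Finset.mem_univ, if_true]
        rfl
    _ ≤ N * (N * (2 * X * ξ)) + N * (‖C.trace - 1‖ + tail n X M + N * (2 * X * ξ)) := by
        have := mul_le_mul_of_nonneg_left hcκ hN0
        linarith
    _ = 4 * X * (N * N) * ξ + N * (‖C.trace - 1‖ + tail n X M) := by ring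
    _ ≤ _ := by
        have h1 : N * N ≤ ((X : ℝ) + 1) ^ (2 * n) := by
          rw [two_mul, pow_add]
          exact mul_le_mul hNle hNle hN0 (by positivity)
        have h2 : 0 ≤ ‖C.trace - 1‖ + tail n X M := add_nonneg (norm_nonneg _) (tail_nonneg hM.le X)
        have h3 := mul_le_mul_of_nonneg_right h1 (show 0 ≤ 4 * (X : ℝ) * ξ by positivity)
        have h4 := mul_le_mul_of_nonneg_right hNle h2
        nlinarith

end

end Vale.Agent.P369H447
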