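import Vale.Agent.P369.H447.End

/-!
P369 (helper447), package FD-END, part 4: entropy of the cut thermal states, lower bound of the
entropy of a matrix with small `(M+1) c_j C - M C c_j`, energy, Gibbs bound.
-/

set_option linter.all false

namespace Vale.Agent.P369H447

open Matrix Finset Filter
open Vale.Agent.P369 (Conf up down)
open Vale.Agent.P369A (Ct)
open Vale.Agent.P369T (thn th)
open Vale.Agent.P369V (ent EigB eta b_ent_eq ment_eq eigB_matrix)
open scoped InnerProductSpace ComplexOrder Topology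

noncomputable section

variable {n : ℕ}

theorem ent_TH (X : ℕ) (M : ℝ) : ent (TH n X M) = ∑ k : Ct n X, Real.negMulLog (thn M k.1) := by
  unfold TH
  exact P369N.ent_diagonal _

theorem ent_TH_tendsto {M : ℝ} (hM : 0 ≤ M) :
    Tendsto (fun X => ent (TH n X M)) atTop (𝓝 (n * P369.g M)) := by
  have hp := P369T.thn_isProb (n := n) hM
  have hsum : HasSum (fun k : Conf n => Real.negMulLog (thn M k)) (n * P369.g M) := by
    rw [← P369T.Hs_thn hM]
    unfold P369.Hs
    apply Summable.hasSum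
    exact P369.summable_negMulLog_of_energy (E := fun k : Conf n => P369.tot k)
      (fun k => hp.1 k) (fun k => hp.le_one k) (P369T.thn_energy hM) (P369.summable_exp_tot n)
  refine (P369A.tendsto_sum_Ct hsum).congr fun X => ?_
  rw [ent_TH]

/-- quantitative lower bound of the entropy -/
theorem ent_ge {X : ℕ} {M ξ lam : ℝ} (hM : 0 < M) (hξ : 0 ≤ ξ) {C : Matrix (Ct n X) (Ct n X) ℂ}
    (hC : C.PosDef) (h0 : 0 < lam) (h1 : lam ≤ 1)
    (h : (C - (lam : ℂ) • (1 : Matrix (Ct n X) (Ct n X) ℂ)).PosSemidef)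
    (htr : C.trace.re ≤ 2)
    (hX : ∀ j (k l : Ct n X), ∑ i, k.1 i < X → ‖XM X M j C k l‖ ≤ ξ) :
    ent (TH n X M) - (2 + Real.log (1 / lam)) *
      (4 * (X : ℝ) * ((X : ℝ) + 1) ^ (2 * n) * ξ +
        ((X : ℝ) + 1) ^ n * (‖C.trace - 1‖ + tail n X M)) ≤ ent C := by
  have h2 := ent_sub_le' (TH_posSemidef X hM.le) hC h0 h1 h htr
  have h3 := sum_norm_sub_le hM hξ hC.isHermitian hX
  have h4 : 0 ≤ Real.log (1 / lam) := Real.log_nonneg (by rw [le_div_iff₀ h0]; linarith)
  have h5 := mul_le_mul_of_nonneg_left h3 (show 0 ≤ 2 + Real.log (1 / lam) by linarith)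
  linarith

/-- `poly(X) q^X → 0` -/
theorem tendsto_poly_mul_pow (p : ℕ) {q : ℝ} (h0 : 0 ≤ q) (h1 : q < 1) :
    Tendsto (fun X : ℕ => ((X : ℝ) + 1) ^ p * q ^ X) atTop (𝓝 0) := by
  rcases h0.eq_or_lt with rfl | hq
  · refine tendsto_const_nhds.congr' ?_
    filter_upwards [eventually_gt_atTop 0] with X hX
    rw [zero_pow (by omega), mul_zero]
  have h := tendsto_pow_const_mul_const_pow_of_lt_one p h0 h1
  have h2 := (h.comp (tendsto_add_atTop_nat 1)).mul_const q⁻¹
  rw [zero_mul] at h2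
  refine h2.congr fun X => ?_
  simp only [Function.comp]
  push_cast
  rw [pow_succ]
  field_simp

/-- sequence form, with rates -/
theorem ent_liminf {M : ℝ} (hM : 0 < M) {X : ℕ → ℕ} (hXt : Tendsto X atTop atTop)
    {C : (D : ℕ) → Matrix (Ct n (X D)) (Ct n (X D)) ℂ} (hC : ∀ᶠ D in atTop, (C D).PosDef)
    {c : ℝ} (hc : 0 ≤ c)
    (hlam : ∀ᶠ D in atTop, (C D - ((Real.exp (-(c * ((X D : ℝ) + 1))) : ℝ) : ℂ) •
      (1 : Matrix (Ct n (X D)) (Ct n (X D)) ℂ)).PosSemidef)
    {ξ : ℕ → ℝ} (hξ0 : ∀ D, 0 ≤ ξ D)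
    (hξ : ∀ᶠ D in atTop, ∀ j (k l : Ct n (X D)), ∑ i, k.1 i < X D →
      ‖XM (X D) M j (C D) k l‖ ≤ ξ D)
    (h1 : Tendsto (fun D => ((X D : ℝ) + 1) ^ (2 * n + 2) * ξ D) atTop (𝓝 0))
    (h2 : Tendsto (fun D => ((X D : ℝ) + 1) ^ (n + 1) * ‖(C D).trace - 1‖) atTop (𝓝 0))
    {ε : ℝ} (hε : 0 < ε) : ∀ᶠ D in atTop, n * P369.g M - ε ≤ ent (C D) := by
  set r : ℝ := M / (M + 1) with hr
  have hM1 : (0 : ℝ) < M + 1 := by linarith
  have hr0 : 0 ≤ r := by positivity
  have hr1 : r < 1 := by rw [hr, div_lt_one hM1]; linarith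
  set q : ℝ := Real.sqrt r with hq
  have hq0 : 0 ≤ q := Real.sqrt_nonneg _
  have hq1 : q < 1 := by
    rw [hq, Real.sqrt_lt' one_pos]
    simpa using hr1
  set K : ℝ := ((1 - q)⁻¹) ^ n with hK
  have hK0 : 0 ≤ K := by
    have : 0 ≤ (1 - q)⁻¹ := inv_nonneg.2 (by linarith)
    positivity
  -- the error
  have herr : Tendsto (fun D => (2 + c) * (4 * (((X D : ℝ) + 1) ^ (2 * n + 2) * ξ D) +
      ((X D : ℝ) + 1) ^ (n + 1) * ‖(C D).trace - 1‖ +
      K * (((X D : ℝ) + 1) ^ (n + 1) * q ^ (X D)))) atTop (𝓝 0) := by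
    have h3 := (tendsto_poly_mul_pow (n + 1) hq0 hq1).comp hXt
    have h4 := (((h1.const_mul 4).add h2).add (h3.const_mul K)).const_mul (2 + c)
    simpa using h4
  have hent := (ent_TH_tendsto (n := n) hM.le).comp hXt
  have hnorm : ∀ᶠ D in atTop, ‖(C D).trace - 1‖ < 1 := by
    have h3 : ∀ᶠ D in atTop, ((X D : ℝ) + 1) ^ (n + 1) * ‖(C D).trace - 1‖ < 1 :=
      h2.eventually (gt_mem_nhds one_pos)
    filter_upwards [h3] with D hD
    refine lt_of_le_of_lt ?_ hD
    refine le_mul_of_one_le_left (norm_nonneg _) (one_le_pow₀ ?_)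
    have : (0 : ℝ) ≤ X D := Nat.cast_nonneg _
    linarith
  filter_upwards [hC, hlam, hξ, hnorm, herr.eventually (gt_mem_nhds (half_pos hε)),
    hent.eventually (lt_mem_nhds (show n * P369.g M - ε / 2 < n * P369.g M by linarith))]
    with D d1 d2 d3 d4 d5 d6
  have hX0 : (0 : ℝ) ≤ X D := Nat.cast_nonneg _
  have hcX : 0 ≤ c * ((X D : ℝ) + 1) := by positivity
  have htr : (C D).trace.re ≤ 2 := by
    have h3 : ((C D).trace - 1).re ≤ ‖(C D).trace - 1‖ := Complex.re_le_norm _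
    rw [Complex.sub_re, Complex.one_re] at h3
    linarith
  have h3 := ent_ge hM (hξ0 D) d1 (Real.exp_pos _) (Real.exp_le_one_iff.2 (by linarith)) d2 htr d3
  have h4 : Real.log (1 / Real.exp (-(c * ((X D : ℝ) + 1)))) = c * ((X D : ℝ) + 1) := by
    rw [one_div, Real.log_inv, Real.log_exp, neg_neg]
  rw [h4] at h3
  have h5 : tail n (X D) M ≤ K * q ^ (X D) := tail_le hM.le (X D)
  have h6 : (2 + c * ((X D : ℝ) + 1)) * (4 * (X D : ℝ) * ((X D : ℝ) + 1) ^ (2 * n) * ξ D +
        ((X D : ℝ) + 1) ^ n * (‖(C D).trace - 1‖ + tail n (X D) M)) ≤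
      (2 + c) * (4 * (((X D : ℝ) + 1) ^ (2 * n + 2) * ξ D) +
      ((X D : ℝ) + 1) ^ (n + 1) * ‖(C D).trace - 1‖ +
      K * (((X D : ℝ) + 1) ^ (n + 1) * q ^ (X D))) := by
    have e1 : 2 + c * ((X D : ℝ) + 1) ≤ (2 + c) * ((X D : ℝ) + 1) := by nlinarith
    have e2 : 4 * (X D : ℝ) * ((X D : ℝ) + 1) ^ (2 * n) * ξ D +
        ((X D : ℝ) + 1) ^ n * (‖(C D).trace - 1‖ + tail n (X D) M) ≤
        4 * ((X D : ℝ) + 1) * ((X D : ℝ) + 1) ^ (2 * n) * ξ D +
        ((X D : ℝ) + 1) ^ n * (‖(C D).trace - 1‖ + K * q ^ (X D)) := by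
      have e3 : (X D : ℝ) * (((X D : ℝ) + 1) ^ (2 * n) * ξ D) ≤
          ((X D : ℝ) + 1) * (((X D : ℝ) + 1) ^ (2 * n) * ξ D) :=
        mul_le_mul_of_nonneg_right (by linarith) (mul_nonneg (by positivity) (hξ0 D))
      have e4 := mul_le_mul_of_nonneg_left h5 (show 0 ≤ ((X D : ℝ) + 1) ^ n by positivity)
      nlinarith
    have e5 : 0 ≤ 4 * (X D : ℝ) * ((X D : ℝ) + 1) ^ (2 * n) * ξ D +
        ((X D : ℝ) + 1) ^ n * (‖(C D).trace - 1‖ + tail n (X D) M) := by
      have := tail_nonneg (n := n) hM.le (X D)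
      have := hξ0 D
      positivity
    refine (mul_le_mul e1 e2 e5 (by positivity)).trans (le_of_eq ?_)
    ring
  simp only [Function.comp] at d6
  linarith

/-! ### the energy -/

/-- the energy of a matrix on the cut space -/
def enC {X : ℕ} (C : Matrix (Ct n X) (Ct n X) ℂ) : ℝ := ∑ k : Ct n X, (∑ j, (k.1 j : ℝ)) * (C k k).re

/-- the weight of the top level -/
def topC {X : ℕ} (C : Matrix (Ct n X) (Ct n X) ℂ) : ℝ :=
  ∑ k : Ct n X, if ∑ i, k.1 i = X then (C k k).re else 0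

theorem conjTranspose_low_mul_trace {X : ℕ} (j : Fin n) (Z : Matrix (Ct n X) (Ct n X) ℂ) :
    ((low X j)ᴴ * Z).trace = ∑ l : Ct n X, if 1 ≤ l.1 j then
      ((Real.sqrt (l.1 j) : ℝ) : ℂ) * Z (dn l j) l else 0 := by
  rw [Matrix.trace]
  refine Finset.sum_congr rfl fun l _ => ?_
  rw [Matrix.diag_apply, Matrix.mul_apply]
  by_cases hl : 1 ≤ l.1 j
  · rw [if_pos hl, Finset.sum_eq_single (dn l j)]
    · rw [Matrix.conjTranspose_apply]
      have : low X j (dn l j) l = ((Real.sqrt (l.1 j) : ℝ) : ℂ) := by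
        unfold low dn
        rw [if_pos (up_down hl).symm]
      rw [this]
      simp
    · intro m _ hm
      rw [Matrix.conjTranspose_apply]
      unfold low
      rw [if_neg, star_zero, zero_mul]
      intro h
      apply hm
      apply Subtype.ext
      show m.1 = down l.1 j
      rw [h, down_up]
    · intro h
      exact absurd (Finset.mem_univ _) h
  · rw [if_neg hl]
    refine Finset.sum_eq_zero fun m _ => ?_
    rw [Matrix.conjTranspose_apply]
    unfold low
    rw [if_neg, star_zero, zero_mul]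
    intro h
    have := congrFun h j
    rw [up_self] at this
    omega

/-- `Tr c_j† c_j C` -/
theorem trace_low_low {X : ℕ} (j : Fin n) (C : Matrix (Ct n X) (Ct n X) ℂ) :
    ((low X j)ᴴ * (low X j * C)).trace = ∑ l : Ct n X, ((l.1 j : ℝ) : ℂ) * C l l := by
  rw [conjTranspose_low_mul_trace]
  refine Finset.sum_congr rfl fun l _ => ?_
  by_cases hl : 1 ≤ l.1 j
  · rw [if_pos hl, low_mul_apply C l hl, ← mul_assoc, ← Complex.ofReal_mul,
      Real.mul_self_sqrt (Nat.cast_nonneg _)]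
  · have : l.1 j = 0 := by omega
    rw [if_neg hl, this]
    simp

/-- `Tr c_j† C c_j` -/
theorem trace_low_mul_low {X : ℕ} (j : Fin n) (C : Matrix (Ct n X) (Ct n X) ℂ) :
    ((low X j)ᴴ * (C * low X j)).trace =
      ∑ k : Ct n X, if ∑ i, k.1 i < X then ((k.1 j + 1 : ℝ) : ℂ) * C k k else 0 := by
  rw [conjTranspose_low_mul_trace]
  have h1 : ∀ l : Ct n X, (if 1 ≤ l.1 j then
      ((Real.sqrt (l.1 j) : ℝ) : ℂ) * (C * low X j) (dn l j) l else 0) =
      if 1 ≤ l.1 j then ((l.1 j : ℝ) : ℂ) * C (dn l j) (dn l j) else 0 := by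
    intro l
    by_cases hl : 1 ≤ l.1 j
    · rw [if_pos hl, if_pos hl, mul_low_apply C _ hl]
      have : ((l.1 j : ℝ) : ℂ) = ((Real.sqrt (l.1 j) : ℝ) : ℂ) * ((Real.sqrt (l.1 j) : ℝ) : ℂ) := by
        rw [← Complex.ofReal_mul, Real.mul_self_sqrt (Nat.cast_nonneg _)]
      rw [this]
      ring
    · rw [if_neg hl, if_neg hl]
  rw [Finset.sum_congr rfl fun l _ => h1 l, ← Finset.sum_filter, ← Finset.sum_filter]
  refine Finset.sum_bij (fun l _ => dn l j) ?_ ?_ ?_ ?_
  · intro l hl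
    rw [Finset.mem_filter] at hl ⊢
    refine ⟨Finset.mem_univ _, ?_⟩
    have e1 := sum_down hl.2
    have e2 := l.2
    show ∑ i, down l.1 j i < X
    omega
  · intro l hl l' hl' h
    rw [Finset.mem_filter] at hl hl'
    apply Subtype.ext
    have h' : down l.1 j = down l'.1 j := congrArg Subtype.val h
    rw [← up_down hl.2, ← up_down hl'.2, h']
  · intro k hk
    rw [Finset.mem_filter] at hk
    refine ⟨⟨up k.1 j, by rw [sum_up]; exact hk.2⟩, ?_, ?_⟩
    · rw [Finset.mem_filter]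
      refine ⟨Finset.mem_univ _, ?_⟩
      show 1 ≤ up k.1 j j
      rw [up_self]
      omega
    · apply Subtype.ext
      exact down_up k.1 j
  · intro l hl
    rw [Finset.mem_filter] at hl
    have e : (((dn l j).1 j + 1 : ℝ) : ℂ) = ((l.1 j : ℝ) : ℂ) := by
      show ((((down l.1 j j : ℕ) : ℝ) + 1 : ℝ) : ℂ) = _
      rw [down_self, Nat.cast_sub hl.2]
      push_cast
      ring
    rw [e]

/-- the energy identity -/
theorem energy_identity {X : ℕ} (M : ℝ) (C : Matrix (Ct n X) (Ct n X) ℂ) :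
    (∑ j, ((low X j)ᴴ * XM X M j C).trace).re =
      enC C - n * M * C.trace.re + M * ((X : ℝ) + n) * topC C := by
  have h1 : ∀ j, ((low X j)ᴴ * XM X M j C).trace =
      ((M + 1 : ℝ) : ℂ) * (∑ l : Ct n X, ((l.1 j : ℝ) : ℂ) * C l l) -
      ((M : ℝ) : ℂ) * (∑ k : Ct n X, if ∑ i, k.1 i < X then ((k.1 j + 1 : ℝ) : ℂ) * C k k else 0) := by
    intro j
    unfold XM
    rw [Matrix.mul_sub, Matrix.mul_smul, Matrix.mul_smul, Matrix.trace_sub, Matrix.trace_smul,
      Matrix.trace_smul, trace_low_low, trace_low_mul_low, smul_eq_mul, smul_eq_mul]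
  rw [Finset.sum_congr rfl fun j _ => h1 j, Finset.sum_sub_distrib, ← Finset.mul_sum,
    ← Finset.mul_sum, Finset.sum_comm, Finset.sum_comm (f := fun j (k : Ct n X) =>
      if ∑ i, k.1 i < X then ((k.1 j + 1 : ℝ) : ℂ) * C k k else 0)]
  rw [Complex.sub_re, Complex.re_ofReal_mul, Complex.re_ofReal_mul, Complex.re_sum, Complex.re_sum]
  unfold enC topC
  have h2 : ∀ l : Ct n X, (∑ j, ((l.1 j : ℝ) : ℂ) * C l l).re = (∑ j, (l.1 j : ℝ)) * (C l l).re := by
    intro l
    rw [← Finset.sum_mul, ← Complex.ofReal_sum, Complex.re_ofReal_mul]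
  have h3 : ∀ k : Ct n X, (∑ j, if ∑ i, k.1 i < X then ((k.1 j + 1 : ℝ) : ℂ) * C k k else 0).re =
      (∑ j, (k.1 j : ℝ)) * (C k k).re + n * (C k k).re -
        ((X : ℝ) + n) * (if ∑ i, k.1 i = X then (C k k).re else 0) := by
    intro k
    by_cases hk : ∑ i, k.1 i < X
    · have hne : ¬ ∑ i, k.1 i = X := by omega
      simp only [if_pos hk, if_neg hne, mul_zero, sub_zero]
      rw [← Finset.sum_mul, ← Complex.ofReal_sum, Complex.re_ofReal_mul, Finset.sum_add_distrib]
      simp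
      ring
    · have he : ∑ i, k.1 i = X := le_antisymm k.2 (by omega)
      have he' : (∑ j, (k.1 j : ℝ)) = X := by exact_mod_cast he
      simp only [if_neg hk, if_pos he, Finset.sum_const_zero, Complex.zero_re]
      rw [he']
      ring
  rw [Finset.sum_congr rfl fun l _ => h2 l, Finset.sum_congr rfl fun k _ => h3 k,
    Finset.sum_sub_distrib, Finset.sum_add_distrib, ← Finset.mul_sum, ← Finset.mul_sum]
  have h4 : C.trace.re = ∑ k : Ct n X, (C k k).re := by
    rw [Matrix.trace, Complex.re_sum]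
    rfl
  rw [h4]
  ring

theorem topC_nonneg {X : ℕ} {C : Matrix (Ct n X) (Ct n X) ℂ} (hC : C.PosSemidef) : 0 ≤ topC C := by
  unfold topC
  refine Finset.sum_nonneg fun k _ => ?_
  split_ifs
  · exact (Complex.le_def.1 (hC.diag_nonneg (i := k))).1
  · exact le_rfl

theorem norm_sum_trace_le {X : ℕ} {M ξ : ℝ} (hξ : 0 ≤ ξ) {C : Matrix (Ct n X) (Ct n X) ℂ}
    (hX : ∀ j (k l : Ct n X), ∑ i, k.1 i < X → ‖XM X M j C k l‖ ≤ ξ) :
    ‖∑ j, ((low X j)ᴴ * XM X M j C).trace‖ ≤ n * ((X : ℝ) + 1) ^ (n + 1) * ξ := by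
  have h1 : ∀ j ∈ (Finset.univ : Finset (Fin n)), ‖((low X j)ᴴ * XM X M j C).trace‖ ≤
      ((X : ℝ) + 1) ^ (n + 1) * ξ := by
    intro j _
    rw [conjTranspose_low_mul_trace]
    refine (norm_sum_le _ _).trans ?_
    have h2 : ∀ l ∈ (Finset.univ : Finset (Ct n X)), ‖(if 1 ≤ l.1 j then
      ((Real.sqrt (l.1 j) : ℝ) : ℂ) * XM X M j C (dn l j) l else 0)‖ ≤ ((X : ℝ) + 1) * ξ := by
      intro l _
      have hX0 : (0 : ℝ) ≤ X := Nat.cast_nonneg _
      by_cases hl : 1 ≤ l.1 j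
      · rw [if_pos hl, norm_mul, Complex.norm_real, Real.norm_of_nonneg (Real.sqrt_nonneg _)]
        refine mul_le_mul ?_ (hX j _ l ?_) (norm_nonneg _) (by positivity)
        · rw [Real.sqrt_le_left (by positivity)]
          have h3 : (l.1 j : ℝ) ≤ X := by
            have : l.1 j ≤ ∑ i, l.1 i := Finset.single_le_sum (f := fun i => l.1 i)
              (fun _ _ => Nat.zero_le _) (Finset.mem_univ j)
            exact_mod_cast this.trans l.2
          nlinarith
        · have e1 := sum_down hl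
          have e2 := l.2
          show ∑ i, down l.1 j i < X
          omega
      · rw [if_neg hl, norm_zero]
        positivity
    refine (Finset.sum_le_card_nsmul _ _ _ h2).trans ?_
    rw [nsmul_eq_mul, Finset.card_univ, pow_succ, mul_assoc]
    exact mul_le_mul_of_nonneg_right (card_Ct_le n X) (by positivity)
  refine (norm_sum_le _ _).trans ((Finset.sum_le_card_nsmul _ _ _ h1).trans ?_)
  rw [nsmul_eq_mul, Finset.card_univ, Fintype.card_fin, mul_assoc]

/-- the energy of the output is at most the thermal one, up to the error -/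
theorem energy_le {X : ℕ} {M ξ : ℝ} (hM : 0 ≤ M) (hξ : 0 ≤ ξ) {C : Matrix (Ct n X) (Ct n X) ℂ}
    (hC : C.PosSemidef) (hX : ∀ j (k l : Ct n X), ∑ i, k.1 i < X → ‖XM X M j C k l‖ ≤ ξ) :
    enC C ≤ n * M * C.trace.re + n * ((X : ℝ) + 1) ^ (n + 1) * ξ := by
  have h1 := energy_identity M C
  have h2 := norm_sum_trace_le (M := M) hξ hX
  have h3 := (Complex.re_le_norm _).trans h2
  have h4 := topC_nonneg hC
  have hX0 : (0 : ℝ) ≤ X := Nat.cast_nonneg _
  have h5 : 0 ≤ M * ((X : ℝ) + n) * topC C := by positivity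
  linarith

/-! ### the Gibbs bound -/

theorem eigB_diagonal {ι : Type} [Fintype ι] [DecidableEq ι] (d : ι → ℝ) :
    EigB (Matrix.toEuclideanLin (Matrix.diagonal fun i => ((d i : ℝ) : ℂ)))
      (EuclideanSpace.basisFun ι ℂ) d := by
  intro k
  rw [EuclideanSpace.basisFun_apply]
  ext i
  rw [Matrix.toLpLin_apply]
  simp [Pi.single_apply, Matrix.mulVec_diagonal]
  by_cases h : i = k
  · rw [if_pos h, if_pos h, h]
  · rw [if_neg h, if_neg h]

/-- Gibbs: `S(A) ≤ β(N) E + n log (1+N)` -/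
theorem gibbs {D : ℕ} {N : ℝ} (hN : 0 < N) {A : Matrix (Ct n D) (Ct n D) ℂ} (hA : A.PosSemidef)
    (ht : A.trace = 1) : ent A ≤ P369.beta N * enC A + n * Real.log (1 + N) := by
  have hTe := eigB_matrix hA.isHermitian
  have hB := eigB_diagonal (fun k : Ct n D => thn N k.1)
  have hle := hTe.ent_le hB hA.eigenvalues_nonneg fun l => thn_pos hN l.1
  have e4 : ent A = eta hA.isHermitian.eigenvalues := by
    rw [b_ent_eq hA.isHermitian, ment_eq hA.isHermitian hTe]
  rw [e4]
  have h1 : ∀ l : Ct n D, RCLike.re ⟪(EuclideanSpace.basisFun (Ct n D) ℂ) l,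
      Matrix.toEuclideanLin A ((EuclideanSpace.basisFun (Ct n D) ℂ) l) -
        Matrix.toEuclideanLin (Matrix.diagonal fun i : Ct n D => ((thn N i.1 : ℝ) : ℂ))
          ((EuclideanSpace.basisFun (Ct n D) ℂ) l)⟫_ℂ = (A l l).re - thn N l.1 := by
    intro l
    rw [← LinearMap.sub_apply, ← map_sub, EuclideanSpace.basisFun_apply,
      EuclideanSpace.inner_single_left, Matrix.toLpLin_apply]
    simp [Matrix.mulVec_single]
  have h2 : ∀ l : Ct n D, Real.log (thn N l.1) = -(P369.beta N * (∑ j, (l.1 j : ℝ)) +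
      n * Real.log (1 + N)) := by
    intro l
    rw [thn_eq hN.le, Real.log_mul (by positivity) (by positivity), Real.log_pow, Real.log_pow,
      Real.log_inv]
    have h3 : Real.log (N / (N + 1)) = - P369.beta N := by
      unfold P369.beta
      rw [← Real.log_inv]
      congr 1
      field_simp
    rw [h3, add_comm N 1]
    push_cast
    ring
  unfold eta at hle ⊢
  have hle' : ∑ l : Ct n D, (Real.log (thn N l.1) + 1) *
          RCLike.re ⟪(EuclideanSpace.basisFun (Ct n D) ℂ) l,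
              (toEuclideanLin A) ((EuclideanSpace.basisFun (Ct n D) ℂ) l) -
                (toEuclideanLin (diagonal fun i : Ct n D => ((thn N i.1 : ℝ) : ℂ)))
                  ((EuclideanSpace.basisFun (Ct n D) ℂ) l)⟫_ℂ =
      ∑ l : Ct n D, (Real.log (thn N l.1) + 1) * ((A l l).re - thn N l.1) :=
    Finset.sum_congr rfl fun l _ => by rw [h1 l]
  rw [hle'] at hle
  have h5 : ∑ l : Ct n D, (A l l).re = 1 := by
    have := congrArg Complex.re ht
    rw [Matrix.trace, Complex.re_sum] at this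
    simpa using this
  have h6 := sum_thn_le_one (n := n) hN.le D
  have h7 : ∑ l : Ct n D, Real.negMulLog (thn N l.1) -
      ∑ l : Ct n D, (Real.log (thn N l.1) + 1) * ((A l l).re - thn N l.1) =
      -∑ l : Ct n D, Real.log (thn N l.1) * (A l l).re - 1 + ∑ l : Ct n D, thn N l.1 := by
    rw [← Finset.sum_sub_distrib]
    have : ∀ l : Ct n D, Real.negMulLog (thn N l.1) - (Real.log (thn N l.1) + 1) *
        ((A l l).re - thn N l.1) = -(Real.log (thn N l.1) * (A l l).re) - (A l l).re + thn N l.1 := by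
      intro l
      unfold Real.negMulLog
      ring
    rw [Finset.sum_congr rfl fun l _ => this l, Finset.sum_add_distrib, Finset.sum_sub_distrib,
      Finset.sum_neg_distrib, h5]
  have h8 : -∑ l : Ct n D, Real.log (thn N l.1) * (A l l).re =
      P369.beta N * enC A + n * Real.log (1 + N) := by
    have : ∀ l : Ct n D, Real.log (thn N l.1) * (A l l).re =
        -(P369.beta N * ((∑ j, (l.1 j : ℝ)) * (A l l).re)) - n * Real.log (1 + N) * (A l l).re := by
      intro l
      rw [h2 l]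
      ring
    rw [Finset.sum_congr rfl fun l _ => this l, Finset.sum_sub_distrib, Finset.sum_neg_distrib,
      ← Finset.mul_sum, ← Finset.mul_sum, h5]
    unfold enC
    ring
  linarith

theorem beta_pos {N : ℝ} (hN : 0 < N) : 0 < P369.beta N := by
  unfold P369.beta
  apply Real.log_pos
  have : 0 < 1 / N := by positivity
  linarith

/-- Gibbs: `T S(A) ≤ E - n N + n T g(N)`, `T = 1/β(N)` -/
theorem gibbs' {D : ℕ} {N : ℝ} (hN : 0 < N) {A : Matrix (Ct n D) (Ct n D) ℂ} (hA : A.PosSemidef)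
    (ht : A.trace = 1) :
    (1 / P369.beta N) * ent A ≤ enC A - n * N + n * ((1 / P369.beta N) * P369.g N) := by
  have h1 := gibbs hN hA ht
  have hb := beta_pos hN
  have h2 := mul_le_mul_of_nonneg_left h1 (show 0 ≤ 1 / P369.beta N by positivity)
  rw [P369.g_eq hN]
  have e : (1 / P369.beta N) * (P369.beta N * enC A + n * Real.log (1 + N)) =
      enC A - n * N + n * ((1 / P369.beta N) * (N * P369.beta N + Real.log (1 + N))) := by
    field_simp
    ring
  rwa [e] at h2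

end

end Vale.Agent.P369H447
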