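import Vale.Agent.P369.FD.Stmts
import Vale.Agent.P369.H447.End2

/-!
P369 (helper447), package FD-GIBBS.
-/

set_option linter.all false

namespace Vale.Agent.P369.FD

open Matrix
open Vale.Agent.P369 (Conf up down ampn g)
open Vale.Agent.P369A (Ct)

theorem bb_eq_beta (N : ℝ) : bb N = Vale.Agent.P369.beta N := rfl

theorem enr_eq_enC {n X : ℕ} (A : Matrix (Ct n X) (Ct n X) ℂ) : enr A = P369H447.enC A := by
  unfold enr P369H447.enC tot
  refine Finset.sum_congr rfl fun k _ => ?_
  push_cast
  rfl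

theorem thm_GIBBS : S_GIBBS := by
  intro n X A hA N hN
  have h := P369H447.gibbs hN hA.1 hA.2
  have hg : Vale.Agent.P369.g N = N * Vale.Agent.P369.beta N + Real.log (1 + N) := P369.g_eq hN
  rw [enr_eq_enC, bb_eq_beta, hg]
  refine h.trans (le_of_eq ?_)
  ring

end Vale.Agent.P369.FD
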