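import Vale.Agent.P369.Bd3.B2

/-!
P369 (helper447), package FD-END, part 1: truncated annihilation matrices on the configurations
with at most `X` photons; the Fock recursion for `(M+1) c_j C - M C c_j`.
-/

set_option linter.all false

namespace Vale.Agent.P369H447

open Matrix Finset
open Vale.Agent.P369 (Conf up down)
open Vale.Agent.P369A (Ct)

noncomputable section

variable {n : ℕ}

/-- the truncated annihilation operator of mode `j` on at most `X` photons -/
def low (X : ℕ) (j : Fin n) : Matrix (Ct n X) (Ct n X) ℂ := fun k l =>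
  if l.1 = up k.1 j then ((Real.sqrt (l.1 j) : ℝ) : ℂ) else 0

/-- `(M+1) c_j C - M C c_j` -/
def XM (X : ℕ) (M : ℝ) (j : Fin n) (C : Matrix (Ct n X) (Ct n X) ℂ) : Matrix (Ct n X) (Ct n X) ℂ :=
  ((M + 1 : ℝ) : ℂ) • (low X j * C) - ((M : ℝ) : ℂ) • (C * low X j)

theorem sum_up (k : Conf n) (j : Fin n) : ∑ i, up k j i = ∑ i, k i + 1 := by
  unfold up
  rw [Finset.sum_update_of_mem (Finset.mem_univ j), ← Finset.add_sum_erase Finset.univ k (Finset.mem_univ j),
    Finset.sdiff_singleton_eq_erase]
  ring

theorem up_down {k : Conf n} {j : Fin n} (h : 1 ≤ k j) : up (down k j) j = k := by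
  funext i
  unfold up down
  by_cases hi : i = j
  · subst hi
    simp only [Function.update_self]
    omega
  · simp only [Function.update_of_ne hi]

theorem down_up (k : Conf n) (j : Fin n) : down (up k j) j = k := by
  funext i
  unfold up down
  by_cases hi : i = j
  · subst hi
    simp only [Function.update_self]
    omega
  · simp only [Function.update_of_ne hi]

theorem up_inj {k l : Conf n} {j : Fin n} (h : up k j = up l j) : k = l := by
  rw [← down_up k j, h, down_up]

theorem sum_down {k : Conf n} {j : Fin n} (h : 1 ≤ k j) : ∑ i, down k j i + 1 = ∑ i, k i := by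
  rw [← sum_up, up_down h]

theorem up_self (k : Conf n) (j : Fin n) : up k j j = k j + 1 := by
  unfold up
  simp only [Function.update_self]

theorem down_self (k : Conf n) (j : Fin n) : down k j j = k j - 1 := by
  unfold down
  simp only [Function.update_self]

/-- `down` on the cut space -/
def dn {X : ℕ} (k : Ct n X) (j : Fin n) : Ct n X := ⟨down k.1 j, by
  refine le_trans (Finset.sum_le_sum fun i _ => ?_) k.2
  unfold down
  by_cases hi : i = j
  · subst hi
    simp only [Function.update_self]
    omega
  · simp only [Function.update_of_ne hi]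
    exact le_rfl⟩

theorem low_mul_apply {X : ℕ} {j : Fin n} (C : Matrix (Ct n X) (Ct n X) ℂ) {k : Ct n X} (l : Ct n X)
    (hk : 1 ≤ k.1 j) : (low X j * C) (dn k j) l = ((Real.sqrt (k.1 j) : ℝ) : ℂ) * C k l := by
  rw [Matrix.mul_apply, Finset.sum_eq_single k]
  · unfold low dn
    rw [if_pos (up_down hk).symm]
  · intro m _ hm
    unfold low dn
    rw [if_neg, zero_mul]
    intro h
    exact hm (Subtype.ext (h.trans (up_down hk)))
  · intro h
    exact absurd (Finset.mem_univ k) h

theorem mul_low_apply {X : ℕ} {j : Fin n} (C : Matrix (Ct n X) (Ct n X) ℂ) (k : Ct n X) {l : Ct n X}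
    (hl : 1 ≤ l.1 j) : (C * low X j) k l = C k (dn l j) * ((Real.sqrt (l.1 j) : ℝ) : ℂ) := by
  rw [Matrix.mul_apply, Finset.sum_eq_single (dn l j)]
  · unfold low dn
    rw [if_pos (up_down hl).symm]
  · intro m _ hm
    unfold low
    rw [if_neg, mul_zero]
    intro h
    apply hm
    apply Subtype.ext
    show m.1 = down l.1 j
    rw [h, down_up]
  · intro h
    exact absurd (Finset.mem_univ _) h

theorem mul_low_apply_zero {X : ℕ} {j : Fin n} (C : Matrix (Ct n X) (Ct n X) ℂ) (k : Ct n X)
    {l : Ct n X} (hl : l.1 j = 0) : (C * low X j) k l = 0 := by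
  rw [Matrix.mul_apply]
  refine Finset.sum_eq_zero fun m _ => ?_
  unfold low
  rw [if_neg, mul_zero]
  intro h
  have := congrFun h j
  rw [hl, up_self] at this
  omega

/-- the zero configuration -/
def z0 (n X : ℕ) : Ct n X := ⟨0, by simp⟩

theorem eq_z0_of_sum {X : ℕ} {k : Ct n X} (h : ∑ j, k.1 j = 0) : k = z0 n X := by
  apply Subtype.ext
  funext j
  exact (Finset.sum_eq_zero_iff.1 h) j (Finset.mem_univ j)

/-- the Fock recursion, quantitatively -/
theorem rec_bound {X : ℕ} {M ξ : ℝ} (hM : 0 < M) {C : Matrix (Ct n X) (Ct n X) ℂ}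
    (hC : C.IsHermitian) (hξ : 0 ≤ ξ)
    (hX : ∀ j (k l : Ct n X), ∑ i, k.1 i < X → ‖XM X M j C k l‖ ≤ ξ) (s : ℕ) :
    ∀ k l : Ct n X, ∑ j, k.1 j + ∑ j, l.1 j = s →
      ‖C k l - (if k = l then (((M / (M + 1)) ^ (∑ j, k.1 j) : ℝ) : ℂ) * C (z0 n X) (z0 n X) else 0)‖ ≤
        (s : ℝ) * ξ := by
  induction s using Nat.strong_induction_on with
  | _ s ih =>
    -- the main step
    have main : ∀ k l : Ct n X, ∑ j, k.1 j + ∑ j, l.1 j = s → ∀ j, 1 ≤ k.1 j → l.1 j ≤ k.1 j →
        ‖C k l - (if k = l then (((M / (M + 1)) ^ (∑ j, k.1 j) : ℝ) : ℂ) * C (z0 n X) (z0 n X)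
          else 0)‖ ≤ (s : ℝ) * ξ := by
      intro k l hs j hk hlk
      have hkj : (1 : ℝ) ≤ (k.1 j : ℝ) := by exact_mod_cast hk
      have hsk : (1 : ℝ) ≤ Real.sqrt (k.1 j) := by
        rw [← Real.sqrt_one]
        exact Real.sqrt_le_sqrt hkj
      have hs1 : 1 ≤ s := by
        have : k.1 j ≤ ∑ i, k.1 i := Finset.single_le_sum (f := fun i => k.1 i) (fun _ _ => Nat.zero_le _)
          (Finset.mem_univ j)
        omega
      have hsr : (1 : ℝ) ≤ s := by exact_mod_cast hs1
      have h1 := hX j (dn k j) l (by
        have e1 := sum_down hk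
        have e2 := k.2
        show ∑ i, down k.1 j i < X
        omega)
      unfold XM at h1
      rw [Matrix.sub_apply, Matrix.smul_apply, Matrix.smul_apply, smul_eq_mul, smul_eq_mul,
        low_mul_apply C l hk] at h1
      have hM1 : (0 : ℝ) < M + 1 := by linarith
      have hden : (0 : ℝ) < (M + 1) * Real.sqrt (k.1 j) := by positivity
      have hden1 : (1 : ℝ) ≤ (M + 1) * Real.sqrt (k.1 j) := by nlinarith
      by_cases hl : l.1 j = 0
      · rw [mul_low_apply_zero C _ hl, mul_zero, sub_zero, norm_mul, norm_mul, Complex.norm_real,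
          Complex.norm_real, Real.norm_of_nonneg hM1.le, Real.norm_of_nonneg (Real.sqrt_nonneg _)] at h1
        have hne : k ≠ l := by
          rintro rfl
          omega
        rw [if_neg hne, sub_zero]
        have h2 : ‖C k l‖ ≤ ξ := by
          have : ‖C k l‖ ≤ (M + 1) * (Real.sqrt (k.1 j) * ‖C k l‖) := by
            nlinarith [norm_nonneg (C k l)]
          exact this.trans h1
        nlinarith
      · have hl1 : 1 ≤ l.1 j := Nat.one_le_iff_ne_zero.2 hl
        rw [mul_low_apply C _ hl1] at h1
        have hsum : ∑ i, (dn k j).1 i + ∑ i, (dn l j).1 i + 2 = s := by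
          have e1 := sum_down hk
          have e2 := sum_down hl1
          show ∑ i, down k.1 j i + ∑ i, down l.1 j i + 2 = s
          omega
        have hih := ih (∑ i, (dn k j).1 i + ∑ i, (dn l j).1 i) (by omega) (dn k j) (dn l j) rfl
        set ρ : ℝ := Real.sqrt (l.1 j) / Real.sqrt (k.1 j) with hρ
        have hρ0 : 0 ≤ ρ := by positivity
        have hρ1 : ρ ≤ 1 := by
          rw [hρ, div_le_one (by positivity)]
          exact Real.sqrt_le_sqrt (by exact_mod_cast hlk)
        set r : ℝ := M / (M + 1) with hr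
        have hr0 : 0 ≤ r := by positivity
        have hr1 : r ≤ 1 := by
          rw [hr, div_le_one hM1]
          linarith
        -- C k l = r ρ C k' l' + err
        have h2 : ‖C k l - ((r * ρ : ℝ) : ℂ) * C (dn k j) (dn l j)‖ ≤ ξ := by
          have e : ((M + 1 : ℝ) : ℂ) * (((Real.sqrt (k.1 j) : ℝ) : ℂ) * C k l) -
              ((M : ℝ) : ℂ) * (C (dn k j) (dn l j) * ((Real.sqrt (l.1 j) : ℝ) : ℂ)) =
              (((M + 1) * Real.sqrt (k.1 j) : ℝ) : ℂ) *
                (C k l - ((r * ρ : ℝ) : ℂ) * C (dn k j) (dn l j)) := by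
            have e1 : (M + 1) * Real.sqrt (k.1 j) * (r * ρ) = M * Real.sqrt (l.1 j) := by
              rw [hr, hρ]
              have : Real.sqrt (k.1 j) ≠ 0 := by positivity
              field_simp
            rw [mul_sub, ← mul_assoc (((M + 1) * Real.sqrt (k.1 j) : ℝ) : ℂ), ← Complex.ofReal_mul, e1]
            push_cast
            ring
          rw [e, norm_mul, Complex.norm_real, Real.norm_of_nonneg hden.le] at h1
          have := norm_nonneg (C k l - ((r * ρ : ℝ) : ℂ) * C (dn k j) (dn l j))
          nlinarith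
        by_cases hkl : k = l
        · subst hkl
          rw [if_pos rfl] at hih ⊢
          have hρe : ρ = 1 := by
            rw [hρ]
            exact div_self (by positivity)
          rw [hρe, mul_one] at h2
          have hsk' : ∑ i, k.1 i = ∑ i, (dn k j).1 i + 1 := by
            have e1 := sum_down hk
            show ∑ i, k.1 i = ∑ i, down k.1 j i + 1
            omega
          have e2 : C k k - (((r ^ (∑ i, k.1 i) : ℝ) : ℂ) * C (z0 n X) (z0 n X)) =
              (C k k - ((r : ℝ) : ℂ) * C (dn k j) (dn k j)) +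
                ((r : ℝ) : ℂ) * (C (dn k j) (dn k j) - (((r ^ (∑ i, (dn k j).1 i) : ℝ) : ℂ) *
                  C (z0 n X) (z0 n X))) := by
            rw [hsk', pow_succ]
            push_cast
            ring
          rw [e2]
          refine (norm_add_le _ _).trans ?_
          rw [norm_mul, Complex.norm_real, Real.norm_of_nonneg hr0]
          have h3 : r * ‖C (dn k j) (dn k j) - (((r ^ (∑ i, (dn k j).1 i) : ℝ) : ℂ) *
                  C (z0 n X) (z0 n X))‖ ≤ ((∑ i, (dn k j).1 i + ∑ i, (dn k j).1 i : ℕ) : ℝ) * ξ := by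
            refine le_trans ?_ hih
            exact mul_le_of_le_one_left (norm_nonneg _) hr1
          have h4 : ((∑ i, (dn k j).1 i + ∑ i, (dn k j).1 i : ℕ) : ℝ) + 1 ≤ s := by
            exact_mod_cast (by omega : ∑ i, (dn k j).1 i + ∑ i, (dn k j).1 i + 1 ≤ s)
          nlinarith
        · have hkl' : dn k j ≠ dn l j := by
            intro h
            apply hkl
            apply Subtype.ext
            have h' : down k.1 j = down l.1 j := congrArg Subtype.val h
            rw [← up_down hk, ← up_down hl1, h']
          rw [if_neg hkl, sub_zero]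
          rw [if_neg hkl', sub_zero] at hih
          have e2 : C k l = (C k l - ((r * ρ : ℝ) : ℂ) * C (dn k j) (dn l j)) +
              ((r * ρ : ℝ) : ℂ) * C (dn k j) (dn l j) := by ring
          rw [e2]
          refine (norm_add_le _ _).trans ?_
          rw [norm_mul, Complex.norm_real, Real.norm_of_nonneg (mul_nonneg hr0 hρ0)]
          have h3 : r * ρ * ‖C (dn k j) (dn l j)‖ ≤
              ((∑ i, (dn k j).1 i + ∑ i, (dn l j).1 i : ℕ) : ℝ) * ξ := by
            refine le_trans ?_ hih
            exact mul_le_of_le_one_left (norm_nonneg _) (mul_le_one₀ hr1 hρ0 hρ1)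
          have h4 : ((∑ i, (dn k j).1 i + ∑ i, (dn l j).1 i : ℕ) : ℝ) + 1 ≤ s := by
            exact_mod_cast (by omega : ∑ i, (dn k j).1 i + ∑ i, (dn l j).1 i + 1 ≤ s)
          nlinarith
    intro k l hs
    by_cases h0 : s = 0
    · have hk : k = z0 n X := eq_z0_of_sum (by omega)
      have hl : l = z0 n X := eq_z0_of_sum (by omega)
      subst hk
      subst hl
      have : ∑ j, (z0 n X).1 j = 0 := by
        show ∑ j : Fin n, (0 : Conf n) j = 0
        simp
      rw [if_pos rfl, this, h0]
      simp
    · -- a mode with a photon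
      obtain ⟨j, hj⟩ : ∃ j, 1 ≤ k.1 j ∨ 1 ≤ l.1 j := by
        by_contra hcon
        push Not at hcon
        apply h0
        rw [← hs]
        have e1 : ∑ j, k.1 j = 0 := Finset.sum_eq_zero fun j _ => by
          have := (hcon j).1
          omega
        have e2 : ∑ j, l.1 j = 0 := Finset.sum_eq_zero fun j _ => by
          have := (hcon j).2
          omega
        rw [e1, e2]
      rcases le_total (l.1 j) (k.1 j) with h | h
      · exact main k l hs j (by omega) h
      · have h2 := main l k (by rw [add_comm]; exact hs) j (by omega) h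
        have e1 : C l k = star (C k l) := (hC.apply l k).symm
        have e0 : C (z0 n X) (z0 n X) = star (C (z0 n X) (z0 n X)) := (hC.apply _ _).symm
        rw [e1] at h2
        by_cases hkl : k = l
        · subst hkl
          rw [← e1] at h2
          exact h2
        · rw [if_neg (Ne.symm hkl), sub_zero, norm_star] at h2
          rw [if_neg hkl, sub_zero]
          exact h2

end

end Vale.Agent.P369H447
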