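import Vale.Agent.P369.FD.Stmts
import Vale.Agent.P369.H447.End2
import Vale.Agent.P369.H447.Gibbs

/-!
P369 (helper447), package FD-END: `thm_END : S_END`.
-/

set_option linter.all false

namespace Vale.Agent.P369.FD

open Matrix Filter
open Vale.Agent.P369 (Conf up down ampn g)
open Vale.Agent.P369A (Ct)
open Vale.Agent.P369H447 (XM enC TH tail)
open scoped Topology ComplexOrder

noncomputable section

section hs

variable {ι : Type} [Fintype ι] [DecidableEq ι]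

theorem hs_eq_trace (Z : Matrix ι ι ℂ) : ∑ k, ∑ l, ‖Z k l‖ ^ 2 = (Zᴴ * Z).trace.re := by
  rw [Matrix.trace, Complex.re_sum, Finset.sum_comm]
  refine Finset.sum_congr rfl fun l _ => ?_
  rw [Matrix.diag_apply, Matrix.mul_apply, Complex.re_sum]
  refine Finset.sum_congr rfl fun k _ => ?_
  rw [Matrix.conjTranspose_apply, ← Complex.normSq_eq_norm_sq, Complex.star_def,
    ← Complex.normSq_eq_conj_mul_self, Complex.ofReal_re]

theorem hs_conj {U : Matrix ι ι ℂ} (hU : U * Uᴴ = 1) (Z : Matrix ι ι ℂ) :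
    ∑ k, ∑ l, ‖(Uᴴ * Z * U) k l‖ ^ 2 = ∑ k, ∑ l, ‖Z k l‖ ^ 2 := by
  rw [hs_eq_trace, hs_eq_trace]
  congr 1
  rw [Matrix.conjTranspose_mul, Matrix.conjTranspose_mul, Matrix.conjTranspose_conjTranspose]
  have e : Uᴴ * (Zᴴ * U) * (Uᴴ * Z * U) = Uᴴ * (Zᴴ * (U * Uᴴ) * Z * U) := by
    simp only [Matrix.mul_assoc]
  rw [e, hU, Matrix.mul_one, Matrix.trace_mul_comm, Matrix.mul_assoc, Matrix.mul_assoc, hU,
    Matrix.mul_one]

theorem eigU_mul {C : Matrix ι ι ℂ} (hC : C.IsHermitian) :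
    (hC.eigenvectorUnitary : Matrix ι ι ℂ) * (hC.eigenvectorUnitary : Matrix ι ι ℂ)ᴴ = 1 := by
  have := Unitary.coe_mul_star_self hC.eigenvectorUnitary
  exact this

theorem norm_entry_le_hs (Z : Matrix ι ι ℂ) (k l : ι) : ‖Z k l‖ ^ 2 ≤ ∑ k, ∑ l, ‖Z k l‖ ^ 2 := by
  have h1 : ‖Z k l‖ ^ 2 ≤ ∑ l, ‖Z k l‖ ^ 2 :=
    Finset.single_le_sum (f := fun l => ‖Z k l‖ ^ 2) (fun _ _ => sq_nonneg _) (Finset.mem_univ l)
  have h2 : ∑ l, ‖Z k l‖ ^ 2 ≤ ∑ k, ∑ l, ‖Z k l‖ ^ 2 :=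
    Finset.single_le_sum (f := fun k => ∑ l, ‖Z k l‖ ^ 2)
      (fun _ _ => Finset.sum_nonneg fun _ _ => sq_nonneg _) (Finset.mem_univ k)
  exact h1.trans h2

/-- entries of a positive semidefinite matrix are bounded by the trace -/
theorem norm_entry_le_trace {C : Matrix ι ι ℂ} (hC : C.PosSemidef) (k l : ι) :
    ‖C k l‖ ≤ C.trace.re := by
  have htr : C.trace.re = ∑ i, hC.isHermitian.eigenvalues i := by
    rw [hC.isHermitian.trace_eq_sum_eigenvalues]
    simp only [Complex.coe_algebraMap, Complex.re_sum, Complex.ofReal_re]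
  have h0 : 0 ≤ C.trace.re := by
    rw [htr]
    exact Finset.sum_nonneg fun i _ => hC.eigenvalues_nonneg i
  have h1 := norm_entry_le_hs C k l
  rw [← hs_conj (eigU_mul hC.isHermitian) C] at h1
  have h2 : (hC.isHermitian.eigenvectorUnitary : Matrix ι ι ℂ)ᴴ * C *
      (hC.isHermitian.eigenvectorUnitary : Matrix ι ι ℂ) =
      diagonal fun i => ((hC.isHermitian.eigenvalues i : ℝ) : ℂ) := by
    have h3 := hC.isHermitian.spectral_theorem
    rw [Unitary.conjStarAlgAut_apply] at h3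
    have h4 : (hC.isHermitian.eigenvectorUnitary : Matrix ι ι ℂ)ᴴ *
        (hC.isHermitian.eigenvectorUnitary : Matrix ι ι ℂ) = 1 :=
      Unitary.coe_star_mul_self hC.isHermitian.eigenvectorUnitary
    set U : Matrix ι ι ℂ := (hC.isHermitian.eigenvectorUnitary : Matrix ι ι ℂ) with hU
    have h5 : star U = Uᴴ := rfl
    rw [h5] at h3
    have h6 := congrArg (fun Y => Uᴴ * Y * U) h3
    refine h6.trans ?_
    calc Uᴴ * (U * diagonal (RCLike.ofReal ∘ hC.isHermitian.eigenvalues) * Uᴴ) * U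
        = (Uᴴ * U) * diagonal (RCLike.ofReal ∘ hC.isHermitian.eigenvalues) * (Uᴴ * U) := by
          simp only [Matrix.mul_assoc]
      _ = _ := by
          rw [h4, Matrix.one_mul, Matrix.mul_one]
          rfl
  rw [h2] at h1
  have h3 : ∑ k, ∑ l, ‖(diagonal fun i => ((hC.isHermitian.eigenvalues i : ℝ) : ℂ)) k l‖ ^ 2 =
      ∑ i, hC.isHermitian.eigenvalues i ^ 2 := by
    refine Finset.sum_congr rfl fun i _ => ?_
    rw [Finset.sum_eq_single i]
    · rw [diagonal_apply_eq, Complex.norm_real, Real.norm_eq_abs, sq_abs]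
    · intro j _ hj
      rw [diagonal_apply_ne _ (Ne.symm hj)]
      simp
    · intro h
      exact absurd (Finset.mem_univ i) h
  rw [h3] at h1
  have h4 : ∑ i, hC.isHermitian.eigenvalues i ^ 2 ≤ C.trace.re ^ 2 := by
    rw [htr]
    calc ∑ i, hC.isHermitian.eigenvalues i ^ 2
        ≤ ∑ i, hC.isHermitian.eigenvalues i * ∑ j, hC.isHermitian.eigenvalues j := by
          refine Finset.sum_le_sum fun i _ => ?_
          rw [sq]
          exact mul_le_mul_of_nonneg_left (Finset.single_le_sum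
            (f := fun i => hC.isHermitian.eigenvalues i)
            (fun i _ => hC.eigenvalues_nonneg i) (Finset.mem_univ i)) (hC.eigenvalues_nonneg i)
      _ = _ := by rw [← Finset.sum_mul, sq]
  exact (pow_le_pow_iff_left₀ (norm_nonneg _) h0 two_ne_zero).1 (h1.trans h4)

theorem entry_of_dform {C : Matrix ι ι ℂ} (hC : C.PosDef) (htr : C.trace.re ≤ 2) (Z : Matrix ι ι ℂ)
    (k l : ι) : ‖Z k l‖ ^ 2 ≤ 4 * dform (fun x y => 1 / (x + y)) hC.isHermitian Z := by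
  refine (norm_entry_le_hs Z k l).trans ?_
  rw [← hs_conj (eigU_mul hC.isHermitian) Z]
  unfold dform
  rw [Finset.mul_sum]
  refine Finset.sum_le_sum fun i _ => ?_
  rw [Finset.mul_sum]
  refine Finset.sum_le_sum fun j _ => ?_
  have h1 := (P369H447.eigenvalues_le_trace hC.posSemidef i).trans htr
  have h2 := (P369H447.eigenvalues_le_trace hC.posSemidef j).trans htr
  have h3 := hC.eigenvalues_pos i
  have h4 := hC.eigenvalues_pos j
  have h5 : 1 ≤ 4 * (1 / (hC.isHermitian.eigenvalues i + hC.isHermitian.eigenvalues j)) := by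
    rw [mul_one_div, le_div_iff₀ (by linarith)]
    linarith
  have h6 := mul_le_mul_of_nonneg_right h5 (sq_nonneg ‖((hC.isHermitian.eigenvectorUnitary :
    Matrix ι ι ℂ)ᴴ * Z * (hC.isHermitian.eigenvectorUnitary : Matrix ι ι ℂ)) i j‖)
  linarith

end hs

theorem XM_eq {n X : ℕ} (M : ℝ) (j : Fin n) (C : Matrix (Ct n X) (Ct n X) ℂ) :
    XM X M j C = Xl M (low X j) C := rfl

theorem TH_eq_thm {n X : ℕ} {M : ℝ} (hM : 0 ≤ M) : TH n X M = thm n X M := by
  unfold TH thm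
  congr 1
  funext k
  rw [P369H447.thn_eq hM, one_div, mul_comm]

/-- entry bound for `X_M(C)` -/
theorem Xl_entry_le {n X : ℕ} {M Q : ℝ} {C₀ C : Matrix (Ct n X) (Ct n X) ℂ} (hC : C.PosDef)
    (htr : C.trace.re ≤ 2) (hQ : 0 ≤ Q) {j : Fin n}
    (h1 : ‖(C₀ * low X j).trace‖ ^ 2 ≤ Q)
    (h2 : dform (fun x y => 1 / (x + y)) hC.isHermitian
      (Xl M (low X j) C - ((C₀ * low X j).trace / C.trace) • C) ≤ Q) (k l : Ct n X) :
    ‖XM X M j C k l‖ ≤ 3 * Real.sqrt Q := by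
  set γ := (C₀ * low X j).trace with hγ
  have h3 := entry_of_dform hC htr (Xl M (low X j) C - (γ / C.trace) • C) k l
  have h4 : ‖(Xl M (low X j) C - (γ / C.trace) • C) k l‖ ≤ 2 * Real.sqrt Q := by
    rw [← pow_le_pow_iff_left₀ (norm_nonneg _) (by positivity) two_ne_zero, mul_pow,
      Real.sq_sqrt hQ]
    linarith
  have h5 : ‖γ‖ ≤ Real.sqrt Q := Real.le_sqrt_of_sq_le h1
  have h6 : ‖(γ / C.trace) * C k l‖ ≤ Real.sqrt Q := by
    rw [norm_mul, norm_div]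
    have h7 := norm_entry_le_trace hC.posSemidef k l
    have h8 : C.trace.re ≤ ‖C.trace‖ := Complex.re_le_norm _
    calc ‖γ‖ / ‖C.trace‖ * ‖C k l‖ ≤ ‖γ‖ / ‖C.trace‖ * ‖C.trace‖ :=
          mul_le_mul_of_nonneg_left (h7.trans h8) (by positivity)
      _ ≤ ‖γ‖ := by
          rcases eq_or_ne ‖C.trace‖ 0 with h | h
          · rw [h, mul_zero]
            exact norm_nonneg _
          · rw [div_mul_cancel₀ _ h]
      _ ≤ _ := h5
  rw [XM_eq]
  have e : Xl M (low X j) C k l = (Xl M (low X j) C - (γ / C.trace) • C) k l +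
      (γ / C.trace) * C k l := by
    rw [Matrix.sub_apply, Matrix.smul_apply, smul_eq_mul]
    ring
  rw [e]
  refine (norm_add_le _ _).trans ?_
  linarith

/-! ### limits -/

theorem tendsto_poly2 (p : ℕ) {q : ℝ} (h0 : 0 ≤ q) (h1 : q < 1) :
    Tendsto (fun D : ℕ => (2 * (D : ℝ) + 1) ^ p * q ^ D) atTop (𝓝 0) := by
  have h := (P369H447.tendsto_poly_mul_pow p h0 h1).const_mul ((2 : ℝ) ^ p)
  rw [mul_zero] at h
  refine squeeze_zero (fun D => by positivity) (fun D => ?_) h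
  rw [← mul_assoc, ← mul_pow]
  refine mul_le_mul_of_nonneg_right (pow_le_pow_left₀ (by positivity) ?_ _) (by positivity)
  linarith

theorem sqrt_mul_pow {K ρ : ℝ} (hK : 0 ≤ K) (hρ : 0 ≤ ρ) (D : ℕ) :
    Real.sqrt (K * ρ ^ D) = Real.sqrt K * Real.sqrt ρ ^ D := by
  rw [Real.sqrt_mul hK]
  congr 1
  rw [Real.sqrt_eq_iff_mul_self_eq (by positivity) (by positivity), ← mul_pow,
    Real.mul_self_sqrt hρ]

theorem eD_eq (D : ℕ) : eD D = Real.exp (-1) ^ D := by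
  unfold eD
  rw [← Real.exp_nat_mul]
  congr 1
  ring

theorem exp_neg_one_lt : Real.exp (-1) < 1 := by
  rw [Real.exp_lt_one_iff]
  norm_num

/-- scalar bound for the entropy error -/
theorem err_bound {n D : ℕ} {c k q u r2 e N t : ℝ} (hc : 0 ≤ c) (hk : 0 ≤ k) (hq : 0 ≤ q)
    (hu : 0 ≤ u) (hr : 0 ≤ r2) (he : 0 ≤ e) (hN : 0 ≤ N)
    (h1 : e * N ≤ (2 * (D : ℝ) + 1) ^ n * u ^ D) (h2 : t ≤ k * r2 ^ D) (h3 : 0 ≤ t) :
    (2 + (D : ℝ)) * (4 * (2 * (D : ℝ)) * (2 * (D : ℝ) + 1) ^ (2 * n) * (c * q ^ D) +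
        (2 * (D : ℝ) + 1) ^ n * (e * N + t)) ≤
      2 * (4 * c * ((2 * (D : ℝ) + 1) ^ (2 * n + 2) * q ^ D) +
      (2 * (D : ℝ) + 1) ^ (2 * n + 1) * u ^ D +
      k * ((2 * (D : ℝ) + 1) ^ (n + 1) * r2 ^ D)) := by
  have hD0 : (0 : ℝ) ≤ D := Nat.cast_nonneg _
  set P : ℝ := 2 * (D : ℝ) + 1 with hP
  have hP0 : 0 ≤ P := by positivity
  have e1 : (2 : ℝ) + D ≤ 2 * P := by rw [hP]; linarith
  have e2 : 4 * (2 * (D : ℝ)) * P ^ (2 * n) * (c * q ^ D) ≤ 4 * P * P ^ (2 * n) * (c * q ^ D) := by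
    refine mul_le_mul_of_nonneg_right (mul_le_mul_of_nonneg_right ?_ (by positivity)) (by positivity)
    rw [hP]
    linarith
  have e3 : P ^ n * (e * N + t) ≤ P ^ n * (P ^ n * u ^ D + k * r2 ^ D) :=
    mul_le_mul_of_nonneg_left (by linarith) (by positivity)
  have e4 : 0 ≤ 4 * (2 * (D : ℝ)) * P ^ (2 * n) * (c * q ^ D) + P ^ n * (e * N + t) := by positivity
  refine (mul_le_mul e1 (add_le_add e2 e3) e4 (by positivity)).trans (le_of_eq ?_)
  ring

section core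

variable {n D : ℕ} {M : ℝ} {C₀ C : Matrix (Ct n (2 * D)) (Ct n (2 * D)) ℂ}

theorem trace_reg (hC₀ : IsDM C₀) (hCe : C = C₀ + ((eD D : ℝ) : ℂ) • 1) :
    C.trace = 1 + ((eD D * (Fintype.card (Ct n (2 * D)) : ℝ) : ℝ) : ℂ) := by
  rw [hCe, Matrix.trace_add, hC₀.2, Matrix.trace_smul, Matrix.trace_one, smul_eq_mul]
  push_cast
  rfl

theorem core_energy (hM : 0 < M) (hC₀ : IsDM C₀) (hCe : C = C₀ + ((eD D : ℝ) : ℂ) • 1)
    (hC : C.PosDef) {ξ : ℝ} (hξ0 : 0 ≤ ξ)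
    (hent : ∀ j (k l : Ct n (2 * D)), ∑ i, k.1 i < 2 * D → ‖XM (2 * D) M j C k l‖ ≤ ξ) :
    enr C₀ ≤ n * M + n * M * (eD D * (Fintype.card (Ct n (2 * D)) : ℝ)) +
      n * (2 * (D : ℝ) + 1) ^ (n + 1) * ξ := by
  have h1 := P369H447.energy_le (M := M) hM.le hξ0 hC.posSemidef hent
  have hE0 : 0 < eD D := Real.exp_pos _
  have h2 : enr C₀ ≤ enC C := by
    rw [enr_eq_enC]
    unfold enC
    refine Finset.sum_le_sum fun k _ => ?_
    refine mul_le_mul_of_nonneg_left ?_ (Finset.sum_nonneg fun _ _ => Nat.cast_nonneg _)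
    rw [hCe, Matrix.add_apply, Matrix.smul_apply, Matrix.one_apply_eq, smul_eq_mul, mul_one,
      Complex.add_re, Complex.ofReal_re]
    linarith
  rw [trace_reg hC₀ hCe, Complex.add_re, Complex.one_re, Complex.ofReal_re] at h1
  have hX : ((2 * D : ℕ) : ℝ) = 2 * (D : ℝ) := by push_cast; ring
  rw [hX] at h1
  linarith

theorem core_entropy (hM : 0 < M) (hC₀ : IsDM C₀) (hCe : C = C₀ + ((eD D : ℝ) : ℂ) • 1)
    (hC : C.PosDef) (htr2 : C.trace.re ≤ 2) {ξ : ℝ} (hξ0 : 0 ≤ ξ)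
    (hent : ∀ j (k l : Ct n (2 * D)), ∑ i, k.1 i < 2 * D → ‖XM (2 * D) M j C k l‖ ≤ ξ) :
    P369V.ent (TH n (2 * D) M) - (2 + (D : ℝ)) *
      (4 * (2 * (D : ℝ)) * (2 * (D : ℝ) + 1) ^ (2 * n) * ξ +
        (2 * (D : ℝ) + 1) ^ n * (eD D * (Fintype.card (Ct n (2 * D)) : ℝ) + tail n (2 * D) M)) ≤
      P369V.ent C := by
  have hE0 : 0 < eD D := Real.exp_pos _
  have hpsd : (C - ((eD D : ℝ) : ℂ) • (1 : Matrix (Ct n (2 * D)) (Ct n (2 * D)) ℂ)).PosSemidef := by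
    rw [hCe, add_sub_cancel_right]
    exact hC₀.1
  have hE1 : eD D ≤ 1 := by
    unfold eD
    rw [Real.exp_le_one_iff]
    have : (0 : ℝ) ≤ D := Nat.cast_nonneg _
    linarith
  have h1 := P369H447.ent_ge hM hξ0 hC hE0 hE1 hpsd htr2 hent
  have hlog : Real.log (1 / eD D) = D := by
    unfold eD
    rw [one_div, Real.log_inv, Real.log_exp, neg_neg]
  have hX : ((2 * D : ℕ) : ℝ) = 2 * (D : ℝ) := by push_cast; ring
  have htr1 : ‖C.trace - 1‖ = eD D * (Fintype.card (Ct n (2 * D)) : ℝ) := by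
    rw [trace_reg hC₀ hCe, add_sub_cancel_left, Complex.norm_real, Real.norm_of_nonneg (by positivity)]
  rw [hlog, htr1, hX] at h1
  exact h1

end core

theorem thm_END : S_END := by
  intro n M K ρ hM hK hρ0 hρ1 τ hτ
  -- constants
  set q : ℝ := Real.sqrt ρ with hq
  have hq0 : 0 ≤ q := Real.sqrt_nonneg _
  have hq1 : q < 1 := by
    rw [hq, Real.sqrt_lt' one_pos]
    simpa using hρ1
  set u : ℝ := Real.exp (-1) with hu
  have hu0 : 0 ≤ u := (Real.exp_pos _).le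
  have hu1 : u < 1 := exp_neg_one_lt
  set r : ℝ := Real.sqrt (M / (M + 1)) with hr
  have hM1 : (0 : ℝ) < M + 1 := by linarith
  have hr0 : 0 ≤ r := Real.sqrt_nonneg _
  have hr1 : r < 1 := by
    rw [hr, Real.sqrt_lt' one_pos]
    rw [div_lt_iff₀ hM1]
    linarith
  have hrr : r ^ 2 < 1 := pow_lt_one₀ hr0 hr1 two_ne_zero
  set k : ℝ := ((1 - r)⁻¹) ^ n with hk
  have hk0 : 0 ≤ k := by
    have : 0 ≤ (1 - r)⁻¹ := inv_nonneg.2 (by linarith)
    positivity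
  set c : ℝ := 3 * Real.sqrt K with hc
  have hc0 : 0 ≤ c := by positivity
  -- limits
  have l1 : Tendsto (fun D : ℕ => (2 * (D : ℝ) + 1) ^ n * u ^ D) atTop (𝓝 0) := tendsto_poly2 n hu0 hu1
  have l2 : Tendsto (fun D : ℕ => n * M * ((2 * (D : ℝ) + 1) ^ n * u ^ D) +
      n * c * ((2 * (D : ℝ) + 1) ^ (n + 1) * q ^ D)) atTop (𝓝 0) := by
    have := (l1.const_mul (n * M)).add ((tendsto_poly2 (n + 1) hq0 hq1).const_mul (n * c))
    simpa using this
  have l3 : Tendsto (fun D : ℕ => 2 * (4 * c * ((2 * (D : ℝ) + 1) ^ (2 * n + 2) * q ^ D) +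
      (2 * (D : ℝ) + 1) ^ (2 * n + 1) * u ^ D +
      k * ((2 * (D : ℝ) + 1) ^ (n + 1) * (r ^ 2) ^ D))) atTop (𝓝 0) := by
    have h1 := (tendsto_poly2 (2 * n + 2) hq0 hq1).const_mul (4 * c)
    have h2 := tendsto_poly2 (2 * n + 1) hu0 hu1
    have h3 := (tendsto_poly2 (n + 1) (by positivity) hrr).const_mul k
    have := ((h1.add h2).add h3).const_mul 2
    simpa using this
  have l4 : Tendsto (fun D : ℕ => P369V.ent (TH n (2 * D) M)) atTop (𝓝 (n * P369.g M)) := by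
    refine (P369H447.ent_TH_tendsto (n := n) hM.le).comp ?_
    exact tendsto_id.const_mul_atTop' (by norm_num)
  have hev := ((l1.eventually (gt_mem_nhds one_pos)).and
    (l2.eventually (gt_mem_nhds hτ))).and ((l3.eventually (gt_mem_nhds (half_pos hτ))).and
    (l4.eventually (lt_mem_nhds (show n * P369.g M - τ / 2 < n * P369.g M by linarith))))
  obtain ⟨D₀, hD₀⟩ := eventually_atTop.1 hev
  refine ⟨D₀, fun D hD C₀ C hC₀ hCe hC hen hγ hQ => ?_⟩
  obtain ⟨⟨d1, d2⟩, d3, d4⟩ := hD₀ D hD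
  have hNle : (Fintype.card (Ct n (2 * D)) : ℝ) ≤ (2 * (D : ℝ) + 1) ^ n := by
    have h := P369H447.card_Ct_le n (2 * D)
    have hX : ((2 * D : ℕ) : ℝ) = 2 * (D : ℝ) := by push_cast; ring
    rwa [hX] at h
  have hN0 : (0 : ℝ) ≤ (Fintype.card (Ct n (2 * D)) : ℝ) := Nat.cast_nonneg _
  have hE0 : 0 < eD D := Real.exp_pos _
  have hEN : eD D * (Fintype.card (Ct n (2 * D)) : ℝ) ≤ (2 * (D : ℝ) + 1) ^ n * u ^ D := by
    rw [eD_eq D, mul_comm]
    exact mul_le_mul_of_nonneg_right hNle (by positivity)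
  have htr2 : C.trace.re ≤ 2 := by
    rw [trace_reg hC₀ hCe, Complex.add_re, Complex.one_re, Complex.ofReal_re]
    linarith
  have hQ0 : 0 ≤ K * ρ ^ D := by positivity
  have hξ0 : 0 ≤ c * q ^ D := by positivity
  have hξe : 3 * Real.sqrt (K * ρ ^ D) = c * q ^ D := by
    rw [sqrt_mul_pow hK.le hρ0.le]
    ring
  have hent : ∀ j (k l : Ct n (2 * D)), ∑ i, k.1 i < 2 * D →
      ‖XM (2 * D) M j C k l‖ ≤ c * q ^ D := by
    intro j k l _
    rw [← hξe]
    exact Xl_entry_le hC htr2 hQ0 (hγ j) (hQ j) k l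
  constructor
  · have h1 := core_energy hM hC₀ hCe hC hξ0 hent
    have h3 : n * M * (eD D * (Fintype.card (Ct n (2 * D)) : ℝ)) ≤
        n * M * ((2 * (D : ℝ) + 1) ^ n * u ^ D) :=
      mul_le_mul_of_nonneg_left hEN (by positivity)
    have h4 : n * (2 * (D : ℝ) + 1) ^ (n + 1) * (c * q ^ D) =
        n * c * ((2 * (D : ℝ) + 1) ^ (n + 1) * q ^ D) := by ring
    rw [h4] at h1
    linarith
  · have h1 := core_entropy hM hC₀ hCe hC htr2 hξ0 hent
    have htail : tail n (2 * D) M ≤ k * (r ^ 2) ^ D := by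
      have := P369H447.tail_le (n := n) hM.le (2 * D)
      rwa [pow_mul] at this
    have htail0 := P369H447.tail_nonneg (n := n) hM.le (2 * D)
    have h2 := err_bound (n := n) (D := D) hc0 hk0 hq0 hu0 (show 0 ≤ r ^ 2 by positivity) hE0.le
      hN0 hEN htail htail0
    show n * P369.g M - τ ≤ P369V.ent C
    linarith

end

end Vale.Agent.P369.FD
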